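/-!
A fast checker for case trees proving Ryser type bounds for `r`-partite hypergraphs.

Vertices of a partial hypergraph are coded by natural numbers `i`: the part is `i / 16`, the label
inside the part is `i % 16`. Sets of vertices are bit masks. The definitions use the raw
operations of `Nat` and raw recursors since the checker is only ever run by the kernel, and
the kernel has fast code exactly for those operations.
The constraints (unions of `nu` disjoint edges of the state) are stored as fields of width `W` in
one large number. All data of the proof tree, also the choice of the constraints in the search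
for the next edge, comes as a stream of bits, one large number.
-/

namespace Vale.Agent.Lib.P045c

/-- The bits of `a` that are not bits of `b`. -/
def andNot (a b : Nat) : Nat := Nat.xor a (Nat.land a b)

/-- Base sixteen digit number `q` of `x`. -/
def dig (x q : Nat) : Nat := Nat.mod (Nat.shiftRight x (Nat.mul q 4)) 16

/-- The lowest set bit of `x`, as a number. -/
def lowBit (x : Nat) : Nat := Nat.land x (Nat.xor x (Nat.sub x 1))

/-- The position of a power of two, for exponents below 130: the powers of two modulo
`131` are distinct, and the large number is a table of the exponents. No property of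
this function is used. -/
def pos2 (b : Nat) : Nat :=
  Nat.mod (Nat.shiftRight 768827200420613481396931607375002583412982788258430046584482297116270658619660449069892069656284048820542948298400975012114651126668415742199102746148877341532277568424158469910218296391993644485328013802966281820986827893308456884455397067634487212939460071222739313093032302146012126459917131361922642130631720960 (Nat.mul 8 (Nat.mod b 131))) 256

/-- The mask of the compact edge `e`: the label in part `p` is digit `p` of `e`. -/
noncomputable def emask (e : Nat) (n : Nat) : Nat :=
  Nat.rec (motive := fun _ => Nat) 0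
    (fun p ih => Nat.lor ih (Nat.shiftLeft 1 (Nat.add (Nat.mul p 16)
      (Nat.mod (Nat.shiftRight e (Nat.mul p 4)) 16)))) n

/-- Partial hypergraph state: edge masks, mask of used vertices, for each `j < nu` the unions of
`j` pairwise disjoint edges of the state, and the constraints as fields of one number. -/
structure St where
  edges : List Nat
  used : Nat
  levels : List (List Nat)
  cE : Nat

/-- The new unions after adding the edge `g`. -/
noncomputable def newOf (g : Nat) (L : List Nat) : List Nat :=
  List.rec (motive := fun _ => List Nat) []
    (fun u _ ih => Bool.rec (motive := fun _ => List Nat) ih (List.cons (Nat.lor u g) ih)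
      (Nat.beq (Nat.land u g) 0)) L

/-- Concatenation of lists. -/
noncomputable def appL (a b : List Nat) : List Nat :=
  List.rec (motive := fun _ => List Nat) b (fun x _ ih => List.cons x ih) a

/-- New levels after adding the edge `g`. -/
noncomputable def addLevels (g : Nat) (rest : List (List Nat)) : List Nat → List (List Nat) :=
  List.rec (motive := fun _ => List Nat → List (List Nat)) (fun _ => [])
    (fun L _ ih prev => List.cons (appL (newOf g prev) L) (ih L)) rest

/-- New levels after adding the edge `g`. -/
noncomputable def addAll (g : Nat) (L : List (List Nat)) : List (List Nat) :=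
  List.rec (motive := fun _ => List (List Nat)) []
    (fun L0 rest _ => List.cons L0 (addLevels g rest L0)) L

/-- The last level. -/
noncomputable def lastL (L : List (List Nat)) : List Nat :=
  List.rec (motive := fun _ => List Nat) []
    (fun x rest ih => List.rec (motive := fun _ => List Nat) x (fun _ _ _ => ih) rest) L

/-- Add constraints as the new lowest fields. -/
noncomputable def pushAll (W : Nat) (L : List Nat) : Nat → Nat :=
  List.rec (motive := fun _ => Nat → Nat) (fun c => c)
    (fun u _ ih c => ih (Nat.lor (Nat.shiftLeft c W) u)) L

/-- Add the edge with mask `g`. -/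
noncomputable def St.add (nu W : Nat) (S : St) (g : Nat) : St :=
  St.mk (List.cons g S.edges) (Nat.lor S.used g) (addAll g S.levels)
    (Bool.rec (motive := fun _ => Nat)
      (pushAll W (newOf g (lastL S.levels)) S.cE)
      (Nat.lor (Nat.shiftLeft S.cE W) g)
      (Nat.beq nu 1))

/-- Empty levels. -/
noncomputable def emptyLevels (n : Nat) : List (List Nat) :=
  Nat.rec (motive := fun _ => List (List Nat)) [] (fun _ ih => List.cons [] ih) n

/-- The empty state. -/
noncomputable def St.init (nu : Nat) : St :=
  St.mk [] 0 (List.cons [0] (emptyLevels (Nat.sub nu 1))) 0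

/-- Add compact edges, in the given order. -/
noncomputable def addCode (r nu W : Nat) (code : List Nat) : St → St :=
  List.rec (motive := fun _ => St → St) (fun S => S)
    (fun e _ ih S => ih (St.add nu W S (emask e r))) code

/-- State made from compact edges, in the given order. -/
noncomputable def stateOf (r nu W : Nat) (code : List Nat) : St :=
  addCode r nu W code (St.init nu)

/-- Mask of a list of `n` base 256 digits. -/
noncomputable def tMask (n t : Nat) : Nat :=
  Nat.rec (motive := fun _ => Nat → Nat) (fun _ => 0)
    (fun _ ih t => Nat.lor (Nat.shiftLeft 1 (Nat.land t 255)) (ih (Nat.shiftRight t 8))) n t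

/-- The next label of part `p`. -/
def freshIdx (used p : Nat) : Nat :=
  Nat.add (Nat.mul p 16)
    (pos2 (andNot (Nat.succ (Nat.mod (Nat.shiftRight used (Nat.mul p 16)) 65536))
      (Nat.mod (Nat.shiftRight used (Nat.mul p 16)) 65536)))

/-- Is a code valid as a new vertex of part `p`? -/
def freshOk (used p i : Nat) : Bool :=
  and (Nat.beq (Nat.div i 16) p) (Nat.beq (Nat.mod (Nat.shiftRight used i) 2) 0)

/-- The vertex map of a reference. -/
def rho (perm maps i : Nat) : Nat :=
  Nat.add (Nat.mul (dig perm (Nat.div i 16)) 16) (dig maps i)

/-- Image mask of compact edge `e` under the map. -/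
noncomputable def mapEdge (perm maps e n : Nat) : Nat :=
  Nat.rec (motive := fun _ => Nat) 0
    (fun p ih => Nat.lor ih
      (Nat.shiftLeft 1 (Nat.add (Nat.mul (Nat.mod (Nat.shiftRight perm (Nat.mul p 4)) 16) 16)
        (Nat.mod (Nat.shiftRight maps (Nat.mul (Nat.add (Nat.mul p 16)
          (Nat.mod (Nat.shiftRight e (Nat.mul p 4)) 16)) 4)) 16)))) n

/-- The digits number `q * 16 + l`, `l < n`, of `m` are distinct and avoid the mask `acc`. -/
noncomputable def injOk (m q n : Nat) : Nat → Bool :=
  Nat.rec (motive := fun _ => Nat → Bool) (fun _ => true)
    (fun l ih acc =>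
      Bool.rec (motive := fun _ => Bool) false
        (ih (Nat.lor acc (Nat.shiftLeft 1
          (Nat.mod (Nat.shiftRight m (Nat.mul (Nat.add (Nat.mul q 16) l) 4)) 16))))
        (Nat.beq (Nat.land acc (Nat.shiftLeft 1
          (Nat.mod (Nat.shiftRight m (Nat.mul (Nat.add (Nat.mul q 16) l) 4)) 16))) 0)) n

/-- A property of the numbers below `n`. -/
noncomputable def allBelow (P : Nat → Bool) (n : Nat) : Bool :=
  Nat.rec (motive := fun _ => Bool) true
    (fun p ih => Bool.rec (motive := fun _ => Bool) false ih (P p)) n

/-- Membership in a list. -/
noncomputable def memL (x : Nat) (L : List Nat) : Bool :=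
  List.rec (motive := fun _ => Bool) false
    (fun y _ ih => Bool.rec (motive := fun _ => Bool) ih true (Nat.beq x y)) L

/-- All elements of a list have a property. -/
noncomputable def allL (P : Nat → Bool) (L : List Nat) : Bool :=
  List.rec (motive := fun _ => Bool) true
    (fun y _ ih => Bool.rec (motive := fun _ => Bool) false ih (P y)) L

/-- `perm` and `inv` are inverse permutations of the first `r` digits. -/
noncomputable def permOk (r perm inv : Nat) : Bool :=
  allBelow (fun p =>
    and (and (Nat.blt (dig perm p) r) (Nat.beq (dig inv (dig perm p)) p))
      (and (Nat.blt (dig inv p) r) (Nat.beq (dig perm (dig inv p)) p))) r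

/-- All conditions of a reference to the known state `(kl', code)`, from a state `S` with
`kl` pending matching edges. -/
noncomputable def refOk (r kl : Nat) (S : St) (kl' : Nat) (code : List Nat) (perm inv maps : Nat) :
    Bool :=
  and (and (and (and (Nat.ble kl' kl)
    (or (Nat.beq kl' 0) (and (Nat.beq (dig perm 0) 0) (Nat.beq (dig perm 1) 1))))
    (permOk r perm inv))
    (allBelow (fun p => injOk maps p 16 0) r))
    (allL (fun e => memL (mapEdge perm maps e r) S.edges) code)

/-- A node of the search for the next edge: `x` starts with the constraint chosen by the stream.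
If it has allowed vertices, they are tried in turn. If it has none, this branch is closed,
or, if there is no such constraint, the search ends with the pattern `pat`. All functions of
the checker get the continuation `k` of the check, which is applied to the rest of the stream. -/
noncomputable def stepDfs (hb : Nat) (done : (Nat → Bool) → Nat → Nat → Nat → Bool)
    (ih : (Nat → Bool) → Nat → Nat → Nat → Nat → Bool) (k : Nat → Bool) (pat al c x : Nat) : Bool :=
  Bool.rec (motive := fun _ => Bool)
    (ih k pat al (Nat.land x al) (Nat.shiftRight c hb))
    (Bool.rec (motive := fun _ => Bool)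
      (k (Nat.shiftRight c hb))
      (done k pat al (Nat.shiftRight c hb))
      (Nat.beq x 0))
    (Nat.beq (Nat.land x al) 0)

/-- The trial of candidates, with fuel `n`. The candidate is the lowest bit of `cands`. -/
noncomputable def dfsFn (W hb hm cE : Nat) (done : (Nat → Bool) → Nat → Nat → Nat → Bool) (n : Nat) :
    (Nat → Bool) → Nat → Nat → Nat → Nat → Bool :=
  Nat.rec (motive := fun _ => (Nat → Bool) → Nat → Nat → Nat → Nat → Bool) (fun _ _ _ _ _ => false)
    (fun _ ih k pat al cands c =>
      stepDfs hb done ih
        (fun c' => Bool.rec (motive := fun _ => Bool)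
          (ih k pat (Nat.xor al (Nat.xor cands (Nat.land cands (Nat.sub cands 1))))
            (Nat.land cands (Nat.sub cands 1)) c')
          (k c')
          (Nat.beq (Nat.land cands (Nat.sub cands 1)) 0))
        (Nat.lor pat (Nat.xor cands (Nat.land cands (Nat.sub cands 1))))
        (Nat.lor (Nat.xor al (Nat.land al (Nat.mul 65535
          (Nat.div (Nat.xor cands (Nat.land cands (Nat.sub cands 1)))
            (Nat.mod (Nat.xor cands (Nat.land cands (Nat.sub cands 1))) 65535)))))
          (Nat.xor cands (Nat.land cands (Nat.sub cands 1)))) c
        (Nat.shiftRight cE (Nat.mul W (Nat.land c hm)))) n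

/-- Try the vertices `cands` of part `p`, and then a new vertex; `kp` goes on with the next parts. -/
noncomputable def pcandFn (used p : Nat) (kp : Nat → Nat → (Nat → Bool) → Bool) (n : Nat) :
    Nat → Nat → Nat → (Nat → Bool) → Bool :=
  Nat.rec (motive := fun _ => Nat → Nat → Nat → (Nat → Bool) → Bool) (fun _ _ _ _ => false)
    (fun _ ih pat cands c k =>
      Bool.rec (motive := fun _ => Bool)
        (kp (Nat.lor pat (lowBit cands)) c (fun c' => ih pat (Nat.xor cands (lowBit cands)) c' k))
        (Bool.rec (motive := fun _ => Bool) false
          (kp (Nat.lor pat (Nat.shiftLeft 1 (freshIdx used p))) c k)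
          (freshOk used p (freshIdx used p)))
        (Nat.beq cands 0)) n

/-- Complete a pattern in the parts below `n`, and go on with `k0`. -/
noncomputable def partsFn (used al : Nat) (k0 : Nat → Nat → (Nat → Bool) → Bool) (n : Nat) :
    Nat → Nat → (Nat → Bool) → Bool :=
  Nat.rec (motive := fun _ => Nat → Nat → (Nat → Bool) → Bool) k0
    (fun p ih pat c k =>
      Bool.rec (motive := fun _ => Bool)
        (ih pat c k)
        (pcandFn used p ih 17 pat
          (Nat.land al (Nat.land used (Nat.shiftLeft 65535 (Nat.mul p 16)))) c k)
        (Nat.beq (Nat.land pat (Nat.shiftLeft 65535 (Nat.mul p 16))) 0)) n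

/-- Start of the search for a pattern. -/
noncomputable def dfsStart (W hb hm cE Fd : Nat) (done : (Nat → Bool) → Nat → Nat → Nat → Bool)
    (al c : Nat) (k : Nat → Bool) : Bool :=
  stepDfs hb done (dfsFn W hb hm cE done Fd) k 0 al c (Nat.shiftRight cE (Nat.mul W (Nat.land c hm)))

/-- Search for the next edge in state `S`: allowed vertices `al`, and then check the child states,
with `nk` pending matching edges. -/
noncomputable def search (r nu W hb hm Fd : Nat) (ih : Nat → St → Nat → (Nat → Bool) → Bool)
    (nk : Nat) (S : St) (al c : Nat) (k : Nat → Bool) : Bool :=
  dfsStart W hb hm S.cE Fd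
    (fun k pat al c => partsFn S.used al (fun pat c k => ih nk (St.add nu W S pat) c k) r pat c k)
    al c k

/-- Element number `i` of a list. -/
noncomputable def nthK (L : List (Nat × List Nat)) : Nat → Option (Nat × List Nat) :=
  List.rec (motive := fun _ => Nat → Option (Nat × List Nat)) (fun _ => none)
    (fun x _ ih i => Nat.rec (motive := fun _ => Option (Nat × List Nat)) (some x)
      (fun j _ => ih j) i) L

/-- Check a node given by a reference to a known state. -/
noncomputable def stepR (r kl : Nat) (known : List (Nat × List Nat)) (S : St) (s : Nat)
    (k : Nat → Bool) : Bool :=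
  Option.rec (motive := fun _ => Bool) false
    (fun x => Bool.rec (motive := fun _ => Bool) false
      (k (Nat.shiftRight s (Nat.add 80 (Nat.mul 64 r))))
      (refOk r kl S x.1 x.2 (Nat.land (Nat.shiftRight s 16) 4294967295)
        (Nat.land (Nat.shiftRight s 48) 4294967295)
        (Nat.land (Nat.shiftRight s 80) (Nat.sub (Nat.shiftLeft 1 (Nat.mul 64 r)) 1))))
    (nthK known (Nat.land s 65535))

/-- Check a node given by a reference to a known state with the same names of vertices. -/
noncomputable def stepI (r kl : Nat) (known : List (Nat × List Nat)) (S : St) (s : Nat)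
    (k : Nat → Bool) : Bool :=
  Option.rec (motive := fun _ => Bool) false
    (fun x => Bool.rec (motive := fun _ => Bool) false
      (k (Nat.shiftRight s 16))
      (and (Nat.ble x.1 kl) (allL (fun e => memL (emask e r) S.edges) x.2)))
    (nthK known (Nat.land s 65535))

/-- Check a node: the low two bits of the stream tell the kind of the node. -/
noncomputable def stepChk (r nu B W hb hm Fd mB univ : Nat) (known : List (Nat × List Nat))
    (ih : Nat → St → Nat → (Nat → Bool) → Bool) (kl : Nat) (S : St) (s : Nat)
    (k : Nat → Bool) : Bool :=
  Bool.rec (motive := fun _ => Bool)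
    (Bool.rec (motive := fun _ => Bool)
      (Bool.rec (motive := fun _ => Bool)
        (stepR r kl known S (Nat.shiftRight s 2) k)
        (stepI r kl known S (Nat.shiftRight s 2) k)
        (Nat.beq (Nat.land s 3) 3))
      (Nat.rec (motive := fun _ => Bool) false
        (fun kl' _ => search r nu W hb hm Fd ih kl' S
          (andNot univ (Nat.land S.used 4294967295)) (Nat.shiftRight s 2) k) kl)
      (Nat.beq (Nat.land s 3) 1))
    (search r nu W hb hm Fd ih 0 S (andNot univ (tMask B (Nat.land (Nat.shiftRight s 2) mB)))
      (Nat.shiftRight s (Nat.add 2 (Nat.mul B 8))) k)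
    (Nat.beq (Nat.land s 3) 0)

/-- The checker. The stream and the continuation are the last arguments. -/
noncomputable def chkFn (r nu B W hb hm Fd mB univ : Nat) (known : List (Nat × List Nat)) (fuel : Nat) :
    Nat → St → Nat → (Nat → Bool) → Bool :=
  Nat.rec (motive := fun _ => Nat → St → Nat → (Nat → Bool) → Bool) (fun _ _ _ _ => false)
    (fun _ ih kl S c k => stepChk r nu B W hb hm Fd mB univ known ih kl S c k) fuel

/-- The Boolean check of a node. -/
noncomputable def checkNode (r nu B W hb hm Fd mB univ : Nat) (known : List (Nat × List Nat))
    (fuel kl : Nat) (code : List Nat) (c : Nat) : Bool :=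
  chkFn r nu B W hb hm Fd mB univ known fuel kl (stateOf r nu W code) c (fun _ => true)

end Vale.Agent.Lib.P045c
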