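import Vale.Agent.Lib.P045c.Run

/-!
Soundness of references to earlier states, and of the whole checker.
-/

namespace Vale.Agent.Lib.P045c

universe u

theorem levels_replicate {W : Type u} (H : Finset (Finset W)) (φ : ℕ → W) (U j n : ℕ) :
    LevelsOK H φ U j (emptyLevels n) := by
  induction n generalizing j with
  | zero => trivial
  | succ n ih =>
    exact ⟨fun u hu => absurd hu (List.not_mem_nil), ih (j + 1)⟩

theorem emptyLevels_length (n : ℕ) : (emptyLevels n).length = n := by
  induction n with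
  | zero => rfl
  | succ n ih =>
    show (emptyLevels n).length + 1 = n + 1
    rw [ih]

theorem not_used_init (nu i : ℕ) : (St.init nu).used.testBit i = false := by
  show (0 : ℕ).testBit i = false
  simp

theorem valid_init (r nu Wd : ℕ) (hnu : 0 < nu) {W : Type u} (c : W → ℕ) (H : Finset (Finset W))
    (φ : ℕ → W) : Valid r nu Wd c H φ (St.init nu) := by
  refine ⟨?_, ?_, ?_, ?_, ?_, ?_, ?_⟩
  · intro i hi
    rw [not_used_init] at hi
    exact Bool.noConfusion hi
  · intro i hi
    rw [not_used_init] at hi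
    exact Bool.noConfusion hi
  · intro i _ hi
    rw [not_used_init] at hi
    exact Bool.noConfusion hi
  · intro m hm
    exact absurd hm (List.not_mem_nil)
  · refine ⟨?_, levels_replicate H φ _ _ _⟩
    intro u hu
    have : u = 0 := List.mem_singleton.1 hu
    subst this
    exact ⟨MU_zero H φ, fun i hi => hi⟩
  · show (emptyLevels (Nat.sub nu 1)).length + 1 = nu
    rw [emptyLevels_length]
    show nu - 1 + 1 = nu
    omega
  · intro k hk
    exfalso
    apply hk
    show Nat.shiftRight 0 (Nat.mul Wd k) = 0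
    show 0 >>> (Nat.mul Wd k) = 0
    simp

theorem valid_fold {r nu Wd : ℕ} {W : Type u} {c : W → ℕ} {H : Finset (Finset W)} {φ : ℕ → W}
    {Ok : ℕ → Prop} (hWr : r * 16 ≤ Wd) (hnu : 0 < nu)
    (hlt : ∀ i, Ok i → i / 16 < r) (hcol : ∀ i, Ok i → c (φ i) = i / 16)
    (hinj : ∀ i j, Ok i → Ok j → φ i = φ j → i = j)
    (L : List ℕ)
    (hL : ∀ e ∈ L, (∃ f ∈ H, Realizes φ (emask e r) f ∧ ∃ v, v ∈ f) ∧
      ∀ i, (emask e r).testBit i = true → Ok i)
    (S0 : St) (h0 : Valid r nu Wd c H φ S0) (h0' : ∀ i, S0.used.testBit i = true → Ok i) :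
    Valid r nu Wd c H φ (addCode r nu Wd L S0) ∧
      ∀ i, (addCode r nu Wd L S0).used.testBit i = true → Ok i := by
  induction L generalizing S0 with
  | nil => exact ⟨h0, h0'⟩
  | cons e L ih =>
    apply ih (fun x hx => hL x (List.mem_cons_of_mem _ hx))
    · obtain ⟨⟨f, hf, hr, hne⟩, hb⟩ := hL e List.mem_cons_self
      refine Valid.add hWr hnu h0 hf hr hne (fun i hi => hlt i (hb i hi))
        (fun i hi => hcol i (hb i hi)) ?_
      intro i j hi hj heq
      have hi' : Ok i := by
        rcases hi with hi | hi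
        · exact h0' i hi
        · exact hb i hi
      have hj' : Ok j := by
        rcases hj with hj | hj
        · exact h0' j hj
        · exact hb j hj
      exact hinj i j hi' hj' heq
    · intro i hi
      obtain ⟨_, hb⟩ := hL e List.mem_cons_self
      have : (Nat.lor S0.used (emask e r)).testBit i = true := hi
      rw [tb_lor, Bool.or_eq_true] at this
      rcases this with h | h
      · exact h0' i h
      · exact hb i h

theorem ref_sound {r nu B Wd kl kl' : ℕ} (hWr : r * 16 ≤ Wd) {S : St} {code : List ℕ} {perm inv maps : ℕ}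
    (hok : refOk r kl S kl' code perm inv maps = true)
    (hkn : RefK.{u} r nu B Wd kl' code) : SemChk.{u} r nu B Wd kl S := by
  classical
  unfold refOk at hok
  rw [Bool.and_eq_true, Bool.and_eq_true, Bool.and_eq_true, Bool.and_eq_true] at hok
  obtain ⟨⟨⟨⟨h1, h2⟩, h3⟩, h4⟩, h5⟩ := hok
  intro W c H φ hG hV hQ
  have hkl : kl' ≤ kl := Nat.le_of_ble_eq_true h1
  have hp : ∀ p, p < r → dig perm p < r ∧ dig inv (dig perm p) = p ∧ dig inv p < r ∧
      dig perm (dig inv p) = p := by
    intro p hpr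
    have := allBelow_spec h3 p hpr
    rw [Bool.and_eq_true, Bool.and_eq_true, Bool.and_eq_true] at this
    obtain ⟨⟨a1, a2⟩, a3, a4⟩ := this
    exact ⟨Nat.blt_eq.mp a1, Nat.eq_of_beq_eq_true a2, Nat.blt_eq.mp a3, Nat.eq_of_beq_eq_true a4⟩
  have hm : ∀ p, p < r → ∀ l l', l < 16 → l' < 16 →
      dig maps (p * 16 + l) = dig maps (p * 16 + l') → l = l' := by
    intro p hpr l l' hl hl' heq
    have := allBelow_spec h4 p hpr
    exact (tb_injOk _ _ _ _ this).2 l l' hl hl' heq
  have he : ∀ e ∈ code, mapEdge perm maps e r ∈ S.edges := by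
    intro e hec
    exact memL_spec (allL_spec h5 e hec)
  let c' : W → ℕ := fun v => dig inv (c v)
  let φ' : ℕ → W := fun i => φ (rho perm maps i)
  have hG' : Good r nu B c' H := by
    refine ⟨hG.pos, hG.nu_pos, ?_, ?_, ?_, hG.nu_le, hG.tau⟩
    · intro e he p hpr
      obtain ⟨v, hv, hcv⟩ := hG.parts e he (dig perm p) (hp p hpr).1
      refine ⟨v, hv, ?_⟩
      show dig inv (c v) = p
      rw [hcv]
      exact (hp p hpr).2.1
    · intro e he v hv w hw hvw
      apply hG.uniq e he v hv w hw
      have hvw' : dig inv (c v) = dig inv (c w) := hvw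
      have a1 := (hp (c v) (hG.col_lt e he v hv)).2.2.2
      have a2 := (hp (c w) (hG.col_lt e he w hw)).2.2.2
      rw [← a1, ← a2, hvw']
    · intro e he v hv
      exact (hp (c v) (hG.col_lt e he v hv)).2.2.1
  let Ok : ℕ → Prop := fun i => ∃ e ∈ code, ∃ p, p < r ∧ i = p * 16 + dig e p
  have hdiv : ∀ i, Ok i → i / 16 < r := by
    rintro i ⟨e, _, p, hpr, rfl⟩
    rw [code_div p _ (dig_lt _ _)]
    exact hpr
  have hrhoU : ∀ i, Ok i → S.used.testBit (rho perm maps i) = true := by
    rintro i ⟨e, hec, p, hpr, rfl⟩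
    exact (hV.edges _ (he e hec)).2 _ ((tb_mapEdge _ _ _ _ _).2 ⟨p, hpr, rfl⟩)
  have hrdiv : ∀ i, Ok i → rho perm maps i / 16 = dig perm (i / 16) := by
    rintro i ⟨e, _, p, _, rfl⟩
    rw [rho_code _ _ _ _ (dig_lt _ _), code_div _ _ (dig_lt _ _), code_div _ _ (dig_lt _ _)]
  have hcol : ∀ i, Ok i → c' (φ' i) = i / 16 := by
    intro i hi
    show dig inv (c (φ (rho perm maps i))) = i / 16
    rw [hV.col _ (hrhoU i hi), hrdiv i hi]
    exact (hp _ (hdiv i hi)).2.1
  have hinj : ∀ i j, Ok i → Ok j → φ' i = φ' j → i = j := by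
    intro i j hi hj heq
    have h6 := hV.inj _ _ (hrhoU i hi) (hrhoU j hj) heq
    obtain ⟨e, _, p, hpr, rfl⟩ := hi
    obtain ⟨e', _, p', hpr', rfl⟩ := hj
    rw [rho_code _ _ _ _ (dig_lt _ _), rho_code _ _ _ _ (dig_lt _ _)] at h6
    have d1 := dig_lt maps (p * 16 + dig e p)
    have d2 := dig_lt maps (p' * 16 + dig e' p')
    have h7 : dig perm p = dig perm p' := by omega
    have h8 : dig maps (p * 16 + dig e p) = dig maps (p' * 16 + dig e' p') := by omega
    have h9 : p = p' := by
      have a1 := (hp p hpr).2.1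
      have a2 := (hp p' hpr').2.1
      rw [← a1, ← a2, h7]
    subst h9
    rw [hm p hpr _ _ (dig_lt _ _) (dig_lt _ _) h8]
  have hreal : ∀ e ∈ code, (∃ f ∈ H, Realizes φ' (emask e r) f ∧ ∃ v, v ∈ f) ∧
      ∀ i, (emask e r).testBit i = true → Ok i := by
    intro e hec
    constructor
    · obtain ⟨⟨f, hf, hr⟩, _⟩ := hV.edges _ (he e hec)
      refine ⟨f, hf, ?_, edge_nonempty hG hf⟩
      intro v
      constructor
      · intro hv
        obtain ⟨k, hk, rfl⟩ := (hr v).1 hv
        obtain ⟨p, hpr, rfl⟩ := (tb_mapEdge _ _ _ _ _).1 hk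
        exact ⟨p * 16 + dig e p, (tb_emask _ _ _).2 ⟨p, hpr, rfl⟩, rfl⟩
      · rintro ⟨i, hi, rfl⟩
        obtain ⟨p, hpr, rfl⟩ := (tb_emask _ _ _).1 hi
        exact (hr _).2 ⟨_, (tb_mapEdge _ _ _ _ _).2 ⟨p, hpr, rfl⟩, rfl⟩
    · intro i hi
      obtain ⟨p, hpr, rfl⟩ := (tb_emask _ _ _).1 hi
      exact ⟨e, hec, p, hpr, rfl⟩
  obtain ⟨hVal, hUsed⟩ := valid_fold hWr hG.nu_pos hdiv hcol hinj code hreal (St.init nu)
    (valid_init r nu Wd hG.nu_pos c' H φ') (by
      intro i hi
      rw [not_used_init] at hi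
      exact Bool.noConfusion hi)
  obtain ⟨Q, hQ1, hQ2, hQ3, hQ4⟩ := hQ
  refine hkn W c' H φ' hG' hVal ?_
  by_cases h0 : kl' = 0
  · subst h0
    exact ⟨∅, by simp, by simp, by simp, by simp⟩
  · have h2' : dig perm 0 = 0 ∧ dig perm 1 = 1 := by
      rw [Bool.or_eq_true] at h2
      rcases h2 with h2 | h2
      · exact absurd (Nat.eq_of_beq_eq_true h2) h0
      · rw [Bool.and_eq_true] at h2
        exact ⟨Nat.eq_of_beq_eq_true h2.1, Nat.eq_of_beq_eq_true h2.2⟩
    obtain ⟨Q', hQ'1, hQ'2⟩ := Finset.exists_subset_card_eq (s := Q) (n := kl') (by omega)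
    refine ⟨Q', hQ'1.trans hQ1, hQ'2, ?_, ?_⟩
    · intro a ha b hb hab v hva hvb
      have h6 := hQ3 a (hQ'1 ha) b (hQ'1 hb) hab v hva hvb
      by_contra h7
      have h8 := hG.col_lt a (hQ1 (hQ'1 ha)) v hva
      have h9 := (hp (c v) h8).2.2.2
      have h10 : dig inv (c v) < 2 := by
        have : ¬ 2 ≤ dig inv (c v) := h7
        omega
      have h11 : dig inv (c v) = 0 ∨ dig inv (c v) = 1 := by omega
      rcases h11 with h11 | h11
      · rw [h11, h2'.1] at h9
        omega
      · rw [h11, h2'.2] at h9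
        omega
    · intro a ha i hi hi2
      have h6 := hUsed i hi
      have h7 := hrdiv i h6
      have h8 : i / 16 = 0 ∨ i / 16 = 1 := by omega
      refine hQ4 a (hQ'1 ha) _ (hrhoU i h6) ?_
      rw [h7]
      rcases h8 with h8 | h8
      · rw [h8, h2'.1]; omega
      · rw [h8, h2'.2]; omega

/-- A reference with the same names of vertices. -/
theorem ref_sound_id {r nu B Wd kl kl' : ℕ} (hWr : r * 16 ≤ Wd) {S : St} {code : List ℕ}
    (hok : and (Nat.ble kl' kl) (allL (fun e => memL (emask e r) S.edges) code) = true)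
    (hkn : RefK.{u} r nu B Wd kl' code) : SemChk.{u} r nu B Wd kl S := by
  classical
  rw [Bool.and_eq_true] at hok
  obtain ⟨h1, h5⟩ := hok
  intro W c H φ hG hV hQ
  have hkl : kl' ≤ kl := Nat.le_of_ble_eq_true h1
  have he : ∀ e ∈ code, emask e r ∈ S.edges := by
    intro e hec
    exact memL_spec (allL_spec h5 e hec)
  have hreal : ∀ e ∈ code, (∃ f ∈ H, Realizes φ (emask e r) f ∧ ∃ v, v ∈ f) ∧
      ∀ i, (emask e r).testBit i = true → S.used.testBit i = true := by
    intro e hec
    obtain ⟨⟨f, hf, hr⟩, h2⟩ := hV.edges _ (he e hec)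
    exact ⟨⟨f, hf, hr, edge_nonempty hG hf⟩, h2⟩
  obtain ⟨hVal, hUsed⟩ := valid_fold hWr hG.nu_pos hV.lt hV.col hV.inj code hreal (St.init nu)
    (valid_init r nu Wd hG.nu_pos c H φ) (by
      intro i hi
      rw [not_used_init] at hi
      exact Bool.noConfusion hi)
  obtain ⟨Q, hQ1, hQ2, hQ3, hQ4⟩ := hQ
  refine hkn W c H φ hG hVal ?_
  obtain ⟨Q', hQ'1, hQ'2⟩ := Finset.exists_subset_card_eq (s := Q) (n := kl') (by omega)
  refine ⟨Q', hQ'1.trans hQ1, hQ'2, ?_, ?_⟩
  · intro a ha b hb hab v hva hvb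
    exact hQ3 a (hQ'1 ha) b (hQ'1 hb) hab v hva hvb
  · intro a ha i hi hi2
    exact hQ4 a (hQ'1 ha) _ (hUsed i hi) hi2

theorem tb_sub_hi (a b i : ℕ) (h : (Nat.xor a (Nat.land a b)).testBit i = true) :
    a.testBit i = true := by
  rw [tb_xor, tb_land] at h
  cases ha : a.testBit i with
  | true => rfl
  | false =>
    rw [ha] at h
    simp at h

theorem nthK_get {r nu B Wd : ℕ} {known : List (ℕ × List ℕ)} (hk : KnownOK.{u} r nu B Wd known)
    {idx : ℕ} {x : ℕ × List ℕ} (h : nthK known idx = some x) :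
    RefK.{u} r nu B Wd x.1 x.2 := by
  induction known generalizing idx with
  | nil =>
    have h' : (none : Option (ℕ × List ℕ)) = some x := h
    cases h'
  | cons y l ih =>
    cases idx with
    | zero =>
      have h' : some y = some x := h
      have : y = x := Option.some.inj h'
      subst this
      exact hk.1
    | succ idx =>
      have h' : nthK l idx = some x := h
      exact ih hk.2 h'

theorem sem_T {r nu B Wd univ hb hm Fd : ℕ} (hWr : r * 16 ≤ Wd) (huniv : univ = 2 ^ (r * 16) - 1)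
    {ih : Nat → St → Nat → (Nat → Bool) → Bool}
    (hih : ∀ kl S c k, ih kl S c k = true → SemChk.{u} r nu B Wd kl S ∧ Sat k)
    {kl : ℕ} {S : St} {t c : Nat} {k : Nat → Bool}
    (h : search r nu Wd hb hm Fd ih 0 S (andNot univ (tMask B t)) c k = true) :
    SemChk.{u} r nu B Wd kl S ∧ Sat k := by
  have huni : ∀ i, i / 16 < r → univ.testBit i = true := by
    intro i hi
    rw [huniv, Nat.testBit_two_pow_sub_one]
    have : i < r * 16 := by omega
    simpa using this
  obtain ⟨h2, s2⟩ := search_sound hWr hih h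
  refine ⟨?_, s2⟩
  intro W c H φ hG hV _
  classical
  have hT' : ((tList B t).map φ).toFinset.card ≤ B := by
    refine (List.toFinset_card_le _).trans ?_
    rw [List.length_map, tList_length]
  obtain ⟨f, hf, hfT⟩ := hG.tau _ hT'
  refine h2 W c H φ f hG hV hf ?_ ⟨∅, by simp, by simp, by simp, by simp, by simp⟩
  refine ⟨?_, ?_, ?_, ?_⟩
  · intro i hi
    simp at hi
  · intro i hiu hif
    rw [tb_andNot, huni i (hV.lt i hiu), Bool.true_and]
    cases hb : (tMask B t).testBit i with
    | false => rfl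
    | true =>
      exfalso
      have := tb_tMask _ _ _ hb
      refine hfT _ hif ?_
      rw [List.mem_toFinset]
      exact List.mem_map_of_mem this
  · intro i _ hi
    simp at hi
  · intro i hi
    simp at hi

theorem sem_K {r nu B Wd univ hb hm Fd : ℕ} (hWr : r * 16 ≤ Wd) (huniv : univ = 2 ^ (r * 16) - 1)
    {ih : Nat → St → Nat → (Nat → Bool) → Bool}
    (hih : ∀ kl S c k, ih kl S c k = true → SemChk.{u} r nu B Wd kl S ∧ Sat k)
    {kl : ℕ} {S : St} {c : Nat} {k : Nat → Bool}
    (h : Nat.rec (motive := fun _ => Bool) false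
        (fun kl' _ => search r nu Wd hb hm Fd ih kl' S
          (andNot univ (Nat.land S.used 4294967295)) c k) kl = true) :
    SemChk.{u} r nu B Wd kl S ∧ Sat k := by
  have huni : ∀ i, i / 16 < r → univ.testBit i = true := by
    intro i hi
    rw [huniv, Nat.testBit_two_pow_sub_one]
    have : i < r * 16 := by omega
    simpa using this
  cases kl with
  | zero => exact false_ne_true' h
  | succ kl' =>
    have h1 : search r nu Wd hb hm Fd ih kl' S
        (andNot univ (Nat.land S.used 4294967295)) c k = true := h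
    obtain ⟨h2, s2⟩ := search_sound hWr hih h1
    refine ⟨?_, s2⟩
    intro W c H φ hG hV hQ
    classical
    obtain ⟨Q, hQ1, hQ2, hQ3, hQ4⟩ := hQ
    have hne : Q.Nonempty := by
      rw [← Finset.card_pos, hQ2]
      omega
    obtain ⟨f, hfQ⟩ := hne
    have hf := hQ1 hfQ
    refine h2 W c H φ f hG hV hf ?_ ⟨Q.erase f, ?_, ?_, ?_, ?_, ?_⟩
    · refine ⟨?_, ?_, ?_, ?_⟩
      · intro i hi
        simp at hi
      · intro i hiu hif
        have hm32 : (4294967295 : ℕ) = 2 ^ 32 - 1 := by norm_num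
        rw [tb_andNot, huni i (hV.lt i hiu), Bool.true_and, tb_land, hiu, Bool.true_and, hm32,
          Nat.testBit_two_pow_sub_one]
        have hi2 : ¬ (i / 16 < 2) := fun hi2 => hQ4 f hfQ i hiu hi2 hif
        have h0 : ¬ i < 32 := by omega
        simp [h0]
      · intro i _ hi
        simp at hi
      · intro i hi
        simp at hi
    · exact (Finset.erase_subset _ _).trans hQ1
    · rw [Finset.card_erase_of_mem hfQ, hQ2]
      rfl
    · intro a ha b hb hab v hva hvb
      exact hQ3 a (Finset.mem_of_mem_erase ha) b (Finset.mem_of_mem_erase hb) hab v hva hvb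
    · intro a ha
      exact hQ4 a (Finset.mem_of_mem_erase ha)
    · intro a ha v hvf hva
      exact hQ3 f hfQ a (Finset.mem_of_mem_erase ha) (Finset.ne_of_mem_erase ha).symm v hvf hva

theorem sem_R {r nu B Wd kl : ℕ} {known : List (ℕ × List ℕ)} (hWr : r * 16 ≤ Wd)
    (hk : KnownOK.{u} r nu B Wd known) {S : St} {s : Nat} {k : Nat → Bool}
    (h : stepR r kl known S s k = true) : SemChk.{u} r nu B Wd kl S ∧ Sat k := by
  unfold stepR at h
  cases hg : nthK known (Nat.land s 65535) with
  | none =>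
    rw [hg] at h
    exact false_ne_true' h
  | some x =>
    rw [hg] at h
    have h' : Bool.rec (motive := fun _ => Bool) false
        (k (Nat.shiftRight s (Nat.add 80 (Nat.mul 64 r))))
        (refOk r kl S x.1 x.2 (Nat.land (Nat.shiftRight s 16) 4294967295)
          (Nat.land (Nat.shiftRight s 48) 4294967295)
          (Nat.land (Nat.shiftRight s 80) (Nat.sub (Nat.shiftLeft 1 (Nat.mul 64 r)) 1))) = true := h
    generalize hro : refOk r kl S x.1 x.2 (Nat.land (Nat.shiftRight s 16) 4294967295)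
        (Nat.land (Nat.shiftRight s 48) 4294967295)
        (Nat.land (Nat.shiftRight s 80) (Nat.sub (Nat.shiftLeft 1 (Nat.mul 64 r)) 1)) = b at h'
    cases b with
    | false => exact false_ne_true' h'
    | true => exact ⟨ref_sound hWr hro (nthK_get hk hg), ⟨_, h'⟩⟩

theorem sem_I {r nu B Wd kl : ℕ} {known : List (ℕ × List ℕ)} (hWr : r * 16 ≤ Wd)
    (hk : KnownOK.{u} r nu B Wd known) {S : St} {s : Nat} {k : Nat → Bool}
    (h : stepI r kl known S s k = true) : SemChk.{u} r nu B Wd kl S ∧ Sat k := by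
  unfold stepI at h
  cases hg : nthK known (Nat.land s 65535) with
  | none =>
    rw [hg] at h
    exact false_ne_true' h
  | some x =>
    rw [hg] at h
    have h' : Bool.rec (motive := fun _ => Bool) false
        (k (Nat.shiftRight s 16))
        (and (Nat.ble x.1 kl) (allL (fun e => memL (emask e r) S.edges) x.2)) = true := h
    generalize hro : and (Nat.ble x.1 kl) (allL (fun e => memL (emask e r) S.edges) x.2) = b at h'
    cases b with
    | false => exact false_ne_true' h'
    | true => exact ⟨ref_sound_id hWr hro (nthK_get hk hg), ⟨_, h'⟩⟩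

theorem sem_chk {r nu B Wd hb hm Fd mB univ : ℕ} {known : List (ℕ × List ℕ)} (hWr : r * 16 ≤ Wd)
    (huniv : univ = 2 ^ (r * 16) - 1)
    (hk : KnownOK.{u} r nu B Wd known) {ih : Nat → St → Nat → (Nat → Bool) → Bool}
    (hih : ∀ kl S c k, ih kl S c k = true → SemChk.{u} r nu B Wd kl S ∧ Sat k)
    {kl : ℕ} {S : St} {s : Nat} {k : Nat → Bool}
    (h : stepChk r nu B Wd hb hm Fd mB univ known ih kl S s k = true) :
    SemChk.{u} r nu B Wd kl S ∧ Sat k := by
  unfold stepChk at h
  cases h0 : Nat.beq (Nat.land s 3) 0 with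
  | true =>
    rw [h0] at h
    exact sem_T hWr huniv hih h
  | false =>
    rw [h0] at h
    cases h1 : Nat.beq (Nat.land s 3) 1 with
    | true =>
      rw [h1] at h
      exact sem_K hWr huniv hih h
    | false =>
      rw [h1] at h
      cases h2 : Nat.beq (Nat.land s 3) 3 with
      | true =>
        rw [h2] at h
        exact sem_I hWr hk h
      | false =>
        rw [h2] at h
        exact sem_R hWr hk h

theorem chk_fn_sound {r nu B Wd hb hm Fd mB univ : ℕ} {known : List (ℕ × List ℕ)}
    (hWr : r * 16 ≤ Wd) (huniv : univ = 2 ^ (r * 16) - 1)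
    (hk : KnownOK.{u} r nu B Wd known) (n : ℕ) :
    ∀ (kl : Nat) (S : St) (c : Nat) (k : Nat → Bool),
      chkFn r nu B Wd hb hm Fd mB univ known n kl S c k = true →
      SemChk.{u} r nu B Wd kl S ∧ Sat k := by
  induction n with
  | zero =>
    intro kl S c k h
    exact false_ne_true' h
  | succ n ih =>
    intro kl S c k h
    exact sem_chk hWr huniv hk ih h

/-- A successful check of a state proves that it does not occur. -/
theorem chk_sound {r nu B Wd hb hm Fd mB univ fuel kl : ℕ} {known : List (ℕ × List ℕ)} {code : List ℕ}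
    {cert : Nat} (hWr : r * 16 ≤ Wd) (huniv : univ = 2 ^ (r * 16) - 1)
    (hk : KnownOK.{u} r nu B Wd known)
    (h : checkNode r nu B Wd hb hm Fd mB univ known fuel kl code cert = true) :
    RefK.{u} r nu B Wd kl code :=
  (chk_fn_sound hWr huniv hk fuel _ _ _ _ h).1

end Vale.Agent.Lib.P045c
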