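import Vale.Agent.Lib.P045c.Sound

/-!
Soundness of the steps of the checker.
-/

namespace Vale.Agent.Lib.P045c

universe u

/-- The continuation accepts some rest of the stream. -/
def Sat (k : Nat → Bool) : Prop := ∃ c, k c = true

theorem false_ne_true' {P : Prop} (h : false = true) : P := Bool.noConfusion h

/-- A field of the constraints is met by every edge. -/
theorem cons_hit {r nu B Wd : ℕ} {W : Type u} {c : W → ℕ} {H : Finset (Finset W)} {φ : ℕ → W}
    (hG : Good r nu B c H) {S : St} (hV : Valid r nu Wd c H φ S) {f : Finset W} (hf : f ∈ H) {h : ℕ}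
    (hk : Nat.shiftRight S.cE (Nat.mul Wd h) ≠ 0) :
    ∃ j, (Nat.shiftRight S.cE (Nat.mul Wd h)).testBit j = true ∧ S.used.testBit j = true ∧
      φ j ∈ f := by
  obtain ⟨u, h2, h3, h4⟩ := hV.cons h hk
  obtain ⟨j, hj1, hj2⟩ := hits_of_MU hG h2 hf
  exact ⟨j, h4 j hj1, h3 j hj1, hj2⟩

/-- A node of the search. -/
theorem sem_dfs {r nu B Wd nk hb : ℕ} {S : St} {done : (Nat → Bool) → Nat → Nat → Nat → Bool}
    {ih : (Nat → Bool) → Nat → Nat → Nat → Nat → Bool}
    (hdone : ∀ k pat al c, done k pat al c = true → SemParts.{u} r nu B Wd nk S r pat al ∧ Sat k)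
    (hih : ∀ k pat al cands c, ih k pat al cands c = true →
      SemCand.{u} r nu B Wd nk S pat al cands ∧ Sat k)
    {k : Nat → Bool} {pat al c h : ℕ}
    (hs : stepDfs hb done ih k pat al c (Nat.shiftRight S.cE (Nat.mul Wd h)) = true) :
    SemDfs.{u} r nu B Wd nk S pat al ∧ Sat k := by
  unfold stepDfs at hs
  cases hb1 : Nat.beq (Nat.land (Nat.shiftRight S.cE (Nat.mul Wd h)) al) 0 with
  | false =>
    rw [hb1] at hs
    obtain ⟨s1, s2⟩ := hih _ _ _ _ _ hs
    refine ⟨?_, s2⟩
    intro W c' H φ f hG hV hf hA hQ
    have hx : Nat.shiftRight S.cE (Nat.mul Wd h) ≠ 0 := by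
      intro h0
      rw [h0] at hb1
      have : Nat.beq (Nat.land 0 al) 0 = true := by
        show Nat.beq (0 &&& al) 0 = true
        simp
      rw [this] at hb1
      exact Bool.noConfusion hb1
    obtain ⟨j, h1, h2, h3⟩ := cons_hit hG hV hf hx
    refine s1 W c' H φ f hG hV hf hA ⟨j, ?_, h2, h3⟩ hQ
    rw [tb_land, h1, hA.a2 j h2 h3]
    rfl
  | true =>
    rw [hb1] at hs
    cases hb2 : Nat.beq (Nat.shiftRight S.cE (Nat.mul Wd h)) 0 with
    | true =>
      rw [hb2] at hs
      obtain ⟨s1, s2⟩ := hdone _ _ _ _ hs
      refine ⟨?_, s2⟩
      intro W c' H φ f hG hV hf hA hQ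
      exact s1 W c' H φ f hG hV hf hA (fun q h1 h2 => absurd h2 (by omega)) hQ
    | false =>
      rw [hb2] at hs
      refine ⟨?_, ⟨_, hs⟩⟩
      intro W c' H φ f hG hV hf hA _
      obtain ⟨j, h1, h2, h3⟩ := cons_hit hG hV hf (beq_zero_false hb2)
      have := not_tb_of_zero (i := j) (beq_zero_true hb1)
      rw [tb_land, h1, hA.a2 j h2 h3] at this
      exact Bool.noConfusion this

/-- Agreement after the choice of a vertex of the edge. -/
theorem agree_step {r nu B Wd : ℕ} {W : Type u} {c : W → ℕ} {H : Finset (Finset W)} {φ : ℕ → W}
    {f : Finset W} (hG : Good r nu B c H) {S : St} (hV : Valid r nu Wd c H φ S) (hf : f ∈ H)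
    {pat al v : ℕ} (hA : Agree r φ S f pat al) (hvu : S.used.testBit v = true) (hvf : φ v ∈ f) :
    Agree r φ S f (Nat.lor pat (2 ^ v))
      (Nat.lor (Nat.xor al (Nat.land al (Nat.mul 65535 (Nat.div (2 ^ v) (Nat.mod (2 ^ v) 65535)))))
        (2 ^ v)) := by
  have hmask : ∀ i, (Nat.mul 65535 (Nat.div (2 ^ v) (Nat.mod (2 ^ v) 65535))).testBit i = true →
      i / 16 = v / 16 := fun i hi => partMask_of_pow v i hi
  generalize Nat.mul 65535 (Nat.div (2 ^ v) (Nat.mod (2 ^ v) 65535)) = M at hmask ⊢
  have hbv : ∀ i, (2 ^ v : ℕ).testBit i = decide (v = i) := fun i => Nat.testBit_two_pow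
  refine ⟨?_, ?_, ?_, ?_⟩
  · intro i hi
    rw [tb_lor, Bool.or_eq_true, hbv, decide_eq_true_eq] at hi
    rcases hi with hi | hi
    · exact hA.a1 i hi
    · subst hi
      exact Or.inl ⟨hvu, hvf⟩
  · intro i hiu hif
    rw [tb_lor, Bool.or_eq_true]
    by_cases hiM : M.testBit i = true
    · right
      have hiv := hmask i hiM
      have h1 : φ i = φ v := by
        apply hG.uniq f hf _ hif _ hvf
        rw [hV.col i hiu, hV.col v hvu, hiv]
      have h2 : i = v := hV.inj i v hiu hvu h1
      subst h2
      rw [hbv]
      simp
    · left
      rw [tb_xor, tb_land, hA.a2 i hiu hif]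
      cases hm : M.testBit i with
      | true => exact absurd hm hiM
      | false => rfl
  · intro i j hi hj hiu hju hij
    rw [tb_lor, Bool.or_eq_true, hbv, decide_eq_true_eq] at hi hj
    rcases hi with hi | hi
    · rcases hj with hj | hj
      · exact hA.a3 i j hi hj hiu hju hij
      · subst hj
        rw [hvu] at hju
        exact Bool.noConfusion hju
    · subst hi
      rw [hvu] at hiu
      exact Bool.noConfusion hiu
  · intro i hi
    rw [tb_lor, Bool.or_eq_true, hbv, decide_eq_true_eq] at hi
    rcases hi with hi | hi
    · exact hA.a4 i hi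
    · subst hi
      exact hV.lt v hvu

/-- The trial of candidates. -/
theorem dfs_sound {r nu B Wd nk hb hm : ℕ} {S : St} {done : (Nat → Bool) → Nat → Nat → Nat → Bool}
    (hdone : ∀ k pat al c, done k pat al c = true → SemParts.{u} r nu B Wd nk S r pat al ∧ Sat k)
    (n : ℕ) : ∀ (k : Nat → Bool) (pat al cands c : ℕ),
      dfsFn Wd hb hm S.cE done n k pat al cands c = true →
      SemCand.{u} r nu B Wd nk S pat al cands ∧ Sat k := by
  induction n with
  | zero =>
    intro k pat al cands c h
    exact false_ne_true' h
  | succ n ih =>
    intro k pat al cands c h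
    have h' : stepDfs hb done (dfsFn Wd hb hm S.cE done n)
        (fun c' => Bool.rec (motive := fun _ => Bool)
          (dfsFn Wd hb hm S.cE done n k pat
            (Nat.xor al (Nat.xor cands (Nat.land cands (Nat.sub cands 1))))
            (Nat.land cands (Nat.sub cands 1)) c')
          (k c')
          (Nat.beq (Nat.land cands (Nat.sub cands 1)) 0))
        (Nat.lor pat (Nat.xor cands (Nat.land cands (Nat.sub cands 1))))
        (Nat.lor (Nat.xor al (Nat.land al (Nat.mul 65535
          (Nat.div (Nat.xor cands (Nat.land cands (Nat.sub cands 1)))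
            (Nat.mod (Nat.xor cands (Nat.land cands (Nat.sub cands 1))) 65535)))))
          (Nat.xor cands (Nat.land cands (Nat.sub cands 1)))) c
        (Nat.shiftRight S.cE (Nat.mul Wd (Nat.land c hm))) = true := h
    obtain ⟨s1, c', hc'⟩ := sem_dfs hdone ih h'
    by_cases hc0 : cands = 0
    · subst hc0
      have hr0 : Nat.land 0 (Nat.sub 0 1) = 0 := by
        show 0 &&& (0 - 1) = 0
        simp
      rw [hr0] at hc'
      refine ⟨?_, ⟨c', hc'⟩⟩
      intro W c H φ f _ _ _ _ hex _
      obtain ⟨i, hi, _⟩ := hex
      simp at hi
    · obtain ⟨v, hv1, hv2, hv3⟩ := rest_spec cands hc0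
      rw [hv2] at s1 hc'
      have hc'' : Bool.rec (motive := fun _ => Bool)
          (dfsFn Wd hb hm S.cE done n k pat (Nat.xor al (2 ^ v))
            (Nat.land cands (Nat.sub cands 1)) c')
          (k c')
          (Nat.beq (Nat.land cands (Nat.sub cands 1)) 0) = true := hc'
      have hbv : ∀ i, (2 ^ v : ℕ).testBit i = decide (v = i) := fun i => Nat.testBit_two_pow
      generalize hrest : Nat.land cands (Nat.sub cands 1) = rest at hc'' hv3
      cases hb0 : Nat.beq rest 0 with
      | true =>
        rw [hb0] at hc''
        refine ⟨?_, ⟨c', hc''⟩⟩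
        intro W c H φ f hG hV hf hA hex hQ
        obtain ⟨i, hi, hiu, hif⟩ := hex
        have hr0 := beq_zero_true hb0
        have hiv : i = v := by
          have h3 := hv3 i
          rw [hr0, Nat.zero_testBit, hi, Bool.true_and] at h3
          by_contra hne
          simp [hne] at h3
        subst hiv
        exact s1 W c H φ f hG hV hf (agree_step hG hV hf hA hiu hif) hQ
      | false =>
        rw [hb0] at hc''
        obtain ⟨s2, s3⟩ := ih _ _ _ _ _ hc''
        refine ⟨?_, s3⟩
        intro W c H φ f hG hV hf hA hex hQ
        by_cases hcase : S.used.testBit v = true ∧ φ v ∈ f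
        · exact s1 W c H φ f hG hV hf (agree_step hG hV hf hA hcase.1 hcase.2) hQ
        · have hne : ∀ i, S.used.testBit i = true → φ i ∈ f → v ≠ i := by
            intro i hiu hif hiv
            subst hiv
            exact hcase ⟨hiu, hif⟩
          refine s2 W c H φ f hG hV hf ?_ ?_ hQ
          · refine ⟨hA.a1, ?_, hA.a3, hA.a4⟩
            intro i hiu hif
            rw [tb_xor, hA.a2 i hiu hif, hbv]
            have := hne i hiu hif
            simp [this]
          · obtain ⟨i, hi, hiu, hif⟩ := hex
            refine ⟨i, ?_, hiu, hif⟩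
            rw [hv3 i, hi]
            have := (hne i hiu hif).symm
            simp [this]

/-- A nonzero mask has a bit. -/
theorem exists_bit_of_land_ne {a b : ℕ} (h : Nat.land a b ≠ 0) :
    ∃ i, a.testBit i = true ∧ b.testBit i = true := by
  by_contra hcon
  apply h
  apply Nat.eq_of_testBit_eq
  intro i
  rw [tb_land, Nat.zero_testBit]
  cases ha : a.testBit i with
  | false => rfl
  | true =>
    cases hb : b.testBit i with
    | false => rfl
    | true => exact absurd ⟨i, ha, hb⟩ hcon

/-- The trial of the vertices of a part. -/
theorem pcand_sound {r nu B Wd nk p al : ℕ} {S : St} {kp : Nat → Nat → (Nat → Bool) → Bool}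
    (hkp : ∀ pat c k, kp pat c k = true → SemParts.{u} r nu B Wd nk S p pat al ∧ Sat k)
    (n : ℕ) : ∀ (pat cands c : ℕ) (k : Nat → Bool),
      pcandFn S.used p kp n pat cands c k = true →
      SemPcand.{u} r nu B Wd nk S p pat al cands ∧ Sat k := by
  induction n with
  | zero =>
    intro pat cands c k h
    exact false_ne_true' h
  | succ n ih =>
    intro pat cands c k h
    have h' : Bool.rec (motive := fun _ => Bool)
        (kp (Nat.lor pat (lowBit cands)) c (fun c' => pcandFn S.used p kp n pat
          (Nat.xor cands (lowBit cands)) c' k))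
        (Bool.rec (motive := fun _ => Bool) false
          (kp (Nat.lor pat (Nat.shiftLeft 1 (freshIdx S.used p))) c k)
          (freshOk S.used p (freshIdx S.used p)))
        (Nat.beq cands 0) = true := h
    cases hb : Nat.beq cands 0 with
    | true =>
      rw [hb] at h'
      cases hfr : freshOk S.used p (freshIdx S.used p) with
      | false =>
        have h2 : Bool.rec (motive := fun _ => Bool) false
            (kp (Nat.lor pat (Nat.shiftLeft 1 (freshIdx S.used p))) c k)
            (freshOk S.used p (freshIdx S.used p)) = true := h'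
        rw [hfr] at h2
        exact false_ne_true' h2
      | true =>
        have h2 : Bool.rec (motive := fun _ => Bool) false
            (kp (Nat.lor pat (Nat.shiftLeft 1 (freshIdx S.used p))) c k)
            (freshOk S.used p (freshIdx S.used p)) = true := h'
        rw [hfr] at h2
        obtain ⟨s1, s2⟩ := hkp _ _ _ h2
        refine ⟨?_, s2⟩
        generalize freshIdx S.used p = x at hfr s1
        have hfr' : freshOk S.used p x = true := hfr
        unfold freshOk at hfr'
        have hx := hfr'
        rw [Bool.and_eq_true] at hx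
        have hx1 : x / 16 = p := Nat.eq_of_beq_eq_true hx.1
        have hx2 : S.used.testBit x = false := by
          have h3 : Nat.mod (Nat.shiftRight S.used x) 2 = 0 := Nat.eq_of_beq_eq_true hx.2
          have h4 : S.used / 2 ^ x % 2 = 0 := by
            have h5 : Nat.shiftRight S.used x = S.used / 2 ^ x := Nat.shiftRight_eq_div_pow _ _
            rw [h5] at h3
            exact h3
          rw [Nat.testBit_eq_decide_div_mod_eq]
          simp [h4]
        have hc0 := beq_zero_true hb
        intro W c H φ f hG hV hf hA hall hpr hno _ hcf hQ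
        have hnof : ∀ j, S.used.testBit j = true → j / 16 = p → φ j ∉ f := by
          intro j hju hjp hjf
          have := hcf j hju hjp hjf
          rw [hc0] at this
          simp at this
        refine s1 W c H φ f hG hV hf ?_ ?_ hQ
        · refine ⟨?_, hA.a2, ?_, ?_⟩
          · intro i hi
            rw [tb_lor, Bool.or_eq_true, tb_shl1, decide_eq_true_eq] at hi
            rcases hi with hi | hi
            · exact hA.a1 i hi
            · subst hi
              refine Or.inr ⟨hx2, ?_⟩
              intro j hju hjp
              exact hnof j hju (by omega)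
          · intro i j hi hj hiu hju hij
            rw [tb_lor, Bool.or_eq_true, tb_shl1, decide_eq_true_eq] at hi hj
            rcases hi with hi | hi
            · rcases hj with hj | hj
              · exact hA.a3 i j hi hj hiu hju hij
              · subst hj
                exact absurd (by omega) (hno i hi)
            · subst hi
              rcases hj with hj | hj
              · exact absurd (by omega) (hno j hj)
              · exact hj
          · intro i hi
            rw [tb_lor, Bool.or_eq_true, tb_shl1, decide_eq_true_eq] at hi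
            rcases hi with hi | hi
            · exact hA.a4 i hi
            · subst hi
              omega
        · intro q hq hqr
          by_cases hqp : q = p
          · subst hqp
            exact ⟨x, by rw [tb_lor, tb_shl1]; simp, hx1⟩
          · obtain ⟨i, hi, hi2⟩ := hall q (by omega) hqr
            exact ⟨i, by rw [tb_lor, hi, Bool.true_or], hi2⟩
    | false =>
      rw [hb] at h'
      have hc0 := beq_zero_false hb
      obtain ⟨v, hv1, hv2⟩ := lowBit_pow cands hc0
      have hl : lowBit cands = 2 ^ v := hv2
      rw [hl] at h'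
      have hbv : ∀ i, (2 ^ v : ℕ).testBit i = decide (v = i) := fun i => Nat.testBit_two_pow
      obtain ⟨s1, c', hc'⟩ := hkp _ _ _ h'
      obtain ⟨s2, s3⟩ := ih _ _ _ _ hc'
      refine ⟨?_, s3⟩
      intro W c H φ f hG hV hf hA hall hpr hno hcu hcf hQ
      by_cases hcase : φ v ∈ f
      · obtain ⟨hvu, hvp⟩ := hcu v hv1
        refine s1 W c H φ f hG hV hf ?_ ?_ hQ
        · refine ⟨?_, hA.a2, ?_, ?_⟩
          · intro i hi
            rw [tb_lor, Bool.or_eq_true, hbv, decide_eq_true_eq] at hi
            rcases hi with hi | hi
            · exact hA.a1 i hi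
            · subst hi
              exact Or.inl ⟨hvu, hcase⟩
          · intro i j hi hj hiu hju hij
            rw [tb_lor, Bool.or_eq_true, hbv, decide_eq_true_eq] at hi hj
            rcases hi with hi | hi
            · rcases hj with hj | hj
              · exact hA.a3 i j hi hj hiu hju hij
              · subst hj
                rw [hvu] at hju
                exact Bool.noConfusion hju
            · subst hi
              rw [hvu] at hiu
              exact Bool.noConfusion hiu
          · intro i hi
            rw [tb_lor, Bool.or_eq_true, hbv, decide_eq_true_eq] at hi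
            rcases hi with hi | hi
            · exact hA.a4 i hi
            · subst hi
              omega
        · intro q hq hqr
          by_cases hqp : q = p
          · subst hqp
            exact ⟨v, by rw [tb_lor, hbv]; simp, hvp⟩
          · obtain ⟨i, hi, hi2⟩ := hall q (by omega) hqr
            exact ⟨i, by rw [tb_lor, hi, Bool.true_or], hi2⟩
      · refine s2 W c H φ f hG hV hf hA hall hpr hno ?_ ?_ hQ
        · intro i hi
          rw [tb_xor, hbv] at hi
          have hci : cands.testBit i = true := by
            cases hi2 : cands.testBit i with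
            | true => rfl
            | false =>
              rw [hi2] at hi
              have hiv : v = i := by
                by_contra hne
                simp [hne] at hi
              subst hiv
              rw [hi2] at hv1
              exact Bool.noConfusion hv1
          exact hcu i hci
        · intro i hiu hip hif
          have hci := hcf i hiu hip hif
          have hiv : v ≠ i := by
            intro hiv
            subst hiv
            exact hcase hif
          rw [tb_xor, hci, hbv]
          simp [hiv]

/-- The completion of a pattern. -/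
theorem parts_sound {r nu B Wd nk al : ℕ} {S : St} {k0 : Nat → Nat → (Nat → Bool) → Bool}
    (hk0 : ∀ pat c k, k0 pat c k = true → SemParts.{u} r nu B Wd nk S 0 pat al ∧ Sat k)
    (n : ℕ) (hn : n ≤ r) : ∀ (pat c : ℕ) (k : Nat → Bool),
      partsFn S.used al k0 n pat c k = true → SemParts.{u} r nu B Wd nk S n pat al ∧ Sat k := by
  induction n with
  | zero => exact hk0
  | succ n ih =>
    intro pat c k h
    have ih' := ih (by omega)
    have hpr : n < r := by omega
    have hpm : Nat.shiftLeft 65535 (Nat.mul n 16) = partMask n := rfl
    have h' : Bool.rec (motive := fun _ => Bool)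
        (partsFn S.used al k0 n pat c k)
        (pcandFn S.used n (partsFn S.used al k0 n) 17 pat
          (Nat.land al (Nat.land S.used (partMask n))) c k)
        (Nat.beq (Nat.land pat (partMask n)) 0) = true := h
    cases hz : Nat.beq (Nat.land pat (partMask n)) 0 with
    | false =>
      rw [hz] at h'
      obtain ⟨s1, s2⟩ := ih' _ _ _ h'
      refine ⟨?_, s2⟩
      intro W c H φ f hG hV hf hA hall hQ
      obtain ⟨i, hi1, hi2⟩ := exists_bit_of_land_ne (beq_zero_false hz)
      rw [tb_partMask, decide_eq_true_eq] at hi2
      refine s1 W c H φ f hG hV hf hA ?_ hQ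
      intro q hq hqr
      by_cases hqp : q = n
      · subst hqp
        exact ⟨i, hi1, hi2⟩
      · exact hall q (by omega) hqr
    | true =>
      rw [hz] at h'
      obtain ⟨s1, s2⟩ := pcand_sound ih' 17 _ _ _ _ h'
      refine ⟨?_, s2⟩
      intro W c H φ f hG hV hf hA hall hQ
      have hz0 := beq_zero_true hz
      have hno : ∀ i, pat.testBit i = true → i / 16 ≠ n := by
        intro i hi hip
        have := not_tb_of_zero (i := i) hz0
        rw [tb_land, hi, tb_partMask] at this
        simp [hip] at this
      refine s1 W c H φ f hG hV hf hA hall hpr hno ?_ ?_ hQ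
      · intro i hi
        rw [tb_land, Bool.and_eq_true, tb_land, Bool.and_eq_true, tb_partMask,
          decide_eq_true_eq] at hi
        exact hi.2
      · intro i hiu hip hif
        rw [tb_land, Bool.and_eq_true, tb_land, Bool.and_eq_true, tb_partMask,
          decide_eq_true_eq]
        exact ⟨hA.a2 i hiu hif, hiu, hip⟩

/-- The statement proved by the check of a state: the state does not occur. -/
theorem search_sound {r nu B Wd nk hb hm Fd : ℕ} {S : St} (hWr : r * 16 ≤ Wd)
    {ih : Nat → St → Nat → (Nat → Bool) → Bool}
    (hih : ∀ kl S c k, ih kl S c k = true → SemChk.{u} r nu B Wd kl S ∧ Sat k)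
    {al c : ℕ} {k : Nat → Bool} (h : search r nu Wd hb hm Fd ih nk S al c k = true) :
    SemDfs.{u} r nu B Wd nk S 0 al ∧ Sat k := by
  have hk0 : ∀ al pat c k, (fun pat c k => ih nk (St.add nu Wd S pat) c k) pat c k = true →
      SemParts.{u} r nu B Wd nk S 0 pat al ∧ Sat k := by
    intro al pat c k h0
    obtain ⟨s1, s2⟩ := hih _ _ _ _ h0
    refine ⟨?_, s2⟩
    intro W c H φ f hG hV hf hA hall hQ
    obtain ⟨φ', h2, h3⟩ := child_step hWr hG hV hf hA (fun q hq => hall q (by omega) hq) hQ
    exact s1 W c H φ' hG h2 h3
  have hdone : ∀ k pat al c, (fun k pat al c => partsFn S.used al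
      (fun pat c k => ih nk (St.add nu Wd S pat) c k) r pat c k) k pat al c = true →
      SemParts.{u} r nu B Wd nk S r pat al ∧ Sat k := by
    intro k pat al c h0
    exact parts_sound (hk0 al) r (le_refl r) _ _ _ h0
  exact sem_dfs hdone (dfs_sound hdone Fd) h

end Vale.Agent.Lib.P045c
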